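import Vale.Agent.Lib.P186.Rescale.Defs

namespace Vale.Agent.Lib.P186.Rescale

open SimpleGraph
open Vale.Agent.Results.P186.ThinBelowOne

/-- C2: balls of the Cayley graph of a finite generating set are finite.
Proof: induction on `R`. `R = 0`: `dist 1 g = 0` gives `g = 1` (`(reachable S hgen 1 g).dist_eq_zero_iff`). Step: the ball of radius `R + 1` is contained in
`Set.image2 (· * ·) (ball R) (PP S)` (finite by `Set.Finite.image2`, `PP_finite`): take a shortest walk from `1` to `g`; if it is `nil`, `g = 1 = 1 * 1`; otherwise write it as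
`w.concat h` (`Walk.exists_concat_eq_cons` / reverse), or use `g' := a.getVert (a.length - 1)`: `dist 1 g' ≤ R` (`dist_le (a.take _)`) and `g'` is adjacent or equal to `g`, so
`g'⁻¹ * g ∈ PP S` by `adj_iff`. -/
theorem ball_finite {G : Type*} [Group G] (S : Set G) (hfin : S.Finite)
    (hgen : Subgroup.closure S = ⊤) (R : ℕ) : {g : G | (mulCayley S).dist 1 g ≤ R}.Finite := by
  induction R with
  | zero =>
    refine (Set.finite_singleton (1 : G)).subset fun g hg => ?_
    have h0 : (mulCayley S).dist 1 g = 0 := Nat.le_zero.mp hg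
    exact ((reachable S hgen 1 g).dist_eq_zero_iff.mp h0).symm
  | succ R ih =>
    refine (Set.Finite.image2 (· * ·) ih (PP_finite S hfin)).subset fun g hg => ?_
    have hg' : (mulCayley S).dist 1 g ≤ R + 1 := hg
    obtain ⟨w, hw⟩ := (reachable S hgen g 1).exists_walk_length_eq_dist
    cases w with
    | nil => exact ⟨1, by simp, 1, one_mem_PP S, by simp⟩
    | @cons _ g1 _ h p =>
      refine ⟨g1, ?_, g1⁻¹ * g, ?_, by simp⟩
      · show (mulCayley S).dist 1 g1 ≤ R
        have h1 : (mulCayley S).dist g1 1 ≤ p.length := dist_le p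
        rw [Walk.length_cons, dist_comm] at hw
        rw [dist_comm]
        omega
      · exact ((adj_iff S).mp h.symm).2

end Vale.Agent.Lib.P186.Rescale
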