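import Vale.Agent.Lib.P186.Rescale.Defs

namespace Vale.Agent.Lib.P186.Rescale

open SimpleGraph
open Vale.Agent.Results.P186.ThinBelowOne

private def lmulHom {G : Type*} [Group G] (S : Set G) (g : G) : mulCayley S →g mulCayley S where
  toFun := fun x => g * x
  map_rel' := by
    intro a b h
    rw [mulCayley_adj'] at h ⊢
    obtain ⟨hne, t, ht, h1⟩ := h
    refine ⟨fun h2 => hne (mul_left_cancel h2), t, ht, ?_⟩
    rcases h1 with h1 | h1
    · left
      rw [mul_assoc, h1]
    · right
      rw [mul_assoc, ← h1]

private theorem reach_mul_left {G : Type*} [Group G] (S : Set G) (g x y : G)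
    (h : (mulCayley S).Reachable x y) : (mulCayley S).Reachable (g * x) (g * y) :=
  h.map (lmulHom S g)

private theorem dist_mul_left_le {G : Type*} [Group G] (S : Set G) (g x y : G)
    (h : (mulCayley S).Reachable x y) :
    (mulCayley S).dist (g * x) (g * y) ≤ (mulCayley S).dist x y := by
  obtain ⟨p, hp⟩ := h.exists_walk_length_eq_dist
  have := dist_le (p.map (lmulHom S g))
  rw [Walk.length_map, hp] at this
  exact this

/-- C1: left multiplication is an isometry of the Cayley graph.
Proof: it is enough to prove `≤` for all `g, x, y` (apply it to `g⁻¹`, `g * x`, `g * y` for the other direction). Left multiplication by `g` is a graph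
homomorphism `mulCayley S →g mulCayley S` (`mulCayley_adj'` or `adj_iff` of `ThinBelowOne.lean`: `(g x)⁻¹ (g y) = x⁻¹ y`). If `x, y` are reachable map a shortest walk
(`Reachable.exists_walk_length_eq_dist`, `Walk.map`, `Walk.length_map`, `dist_le`). If not, then `g x, g y` are not reachable either (map back by `g⁻¹`) and both
distances are `0` (`dist_eq_zero_of_not_reachable`). -/
theorem dist_mul_left {G : Type*} [Group G] (S : Set G) (g x y : G) :
    (mulCayley S).dist (g * x) (g * y) = (mulCayley S).dist x y := by
  by_cases h : (mulCayley S).Reachable x y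
  · apply le_antisymm (dist_mul_left_le S g x y h)
    have h2 := dist_mul_left_le S g⁻¹ (g * x) (g * y) (reach_mul_left S g x y h)
    rwa [inv_mul_cancel_left, inv_mul_cancel_left] at h2
  · have h' : ¬ (mulCayley S).Reachable (g * x) (g * y) := by
      intro h2
      have h3 := reach_mul_left S g⁻¹ (g * x) (g * y) h2
      rw [inv_mul_cancel_left, inv_mul_cancel_left] at h3
      exact h h3
    rw [dist_eq_zero_of_not_reachable h, dist_eq_zero_of_not_reachable h']

end Vale.Agent.Lib.P186.Rescale
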