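import Vale.Agent.Lib.P186.Rescale.CayDist

namespace Vale.Agent.Lib.P186.Rescale

open SimpleGraph
open Vale.Agent.Results.P186.ThinBelowOne

/-- C4: the Cayley graph of the ball is the rescaled graph.
Proof: `ext u v`, `mulCayley_adj'`, `pw_adj`. If `u * g = v`: `dist u v = dist (u * 1) (u * g) = dist 1 g` (`dist_mul_left`). If `u = v * g`: the same with `dist_comm`.
Conversely take `g := u⁻¹ * v`: `dist 1 (u⁻¹ * v) = dist (u * 1) (u * (u⁻¹ * v)) = dist u v`. -/
theorem mulCayley_ball {G : Type*} [Group G] (S : Set G) (R : ℕ) :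
    mulCayley {g : G | (mulCayley S).dist 1 g ≤ R} = pw (mulCayley S) R := by
  ext u v
  rw [mulCayley_adj', pw_adj]
  constructor
  · rintro ⟨hne, g, hg, h | h⟩
    · refine ⟨hne, ?_⟩
      have h1 := dist_mul_left S u 1 g
      rw [mul_one, h] at h1
      rw [h1]
      exact hg
    · refine ⟨hne, ?_⟩
      have h1 := dist_mul_left S v 1 g
      rw [mul_one, ← h] at h1
      rw [dist_comm, h1]
      exact hg
  · rintro ⟨hne, hd⟩
    refine ⟨hne, u⁻¹ * v, ?_, Or.inl (by group)⟩
    have h1 := dist_mul_left S u 1 (u⁻¹ * v)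
    rw [mul_one, mul_inv_cancel_left] at h1
    show (mulCayley S).dist 1 (u⁻¹ * v) ≤ R
    rw [← h1]
    exact hd

end Vale.Agent.Lib.P186.Rescale
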