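import Vale.Agent.Lib.P186.Rescale.Defs

namespace Vale.Agent.Lib.P186.Rescale

open SimpleGraph
open Vale.Agent.Results.P186.ThinBelowOne

/-- C3: the ball of radius `R ≥ 1` generates.
Proof: `S ⊆ ball`: for `s ∈ S`, `s = 1` has distance `0` (`dist_self`), `s ≠ 1` is adjacent to `1` (`adj_iff` or `mulCayley_adj'`), so the distance is `1`
(`dist_eq_one_iff_adj`). Then `Subgroup.closure_mono` and `hgen`, `top_le_iff`. -/
theorem closure_ball {G : Type*} [Group G] (S : Set G) (hgen : Subgroup.closure S = ⊤) {R : ℕ}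
    (hR : 1 ≤ R) : Subgroup.closure {g : G | (mulCayley S).dist 1 g ≤ R} = ⊤ := by
  have hsub : S ⊆ {g : G | (mulCayley S).dist 1 g ≤ R} := by
    intro s hs
    show (mulCayley S).dist 1 s ≤ R
    by_cases h1 : s = 1
    · rw [h1, SimpleGraph.dist_self]
      exact Nat.zero_le _
    · have hadj : (mulCayley S).Adj 1 s := by
        rw [mulCayley_adj']
        exact ⟨fun h => h1 h.symm, s, hs, Or.inl (one_mul s)⟩
      rw [SimpleGraph.dist_eq_one_iff_adj.2 hadj]
      exact hR
  exact top_le_iff.1 (hgen ▸ Subgroup.closure_mono hsub)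

end Vale.Agent.Lib.P186.Rescale
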