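import Vale.Agent.Results.P186.ThinBelowOne

/-!
# P186 / Rescale: definitions

`pw Γ R` is the graph on the vertices of `Γ` in which two different vertices are adjacent iff their distance in `Γ`
is at most `R`. For a Cayley graph of `(G,S)` this is the Cayley graph for the generating set `ball of radius R`.
`NThin Γ D` is `ThinTriangles Γ D` with a natural number as constant.
Goal: if `Γ` is connected and `NThin Γ D` and `14 D + 1 ≤ R` then `NThin (pw Γ R) 3`.
-/

namespace Vale.Agent.Lib.P186.Rescale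

open SimpleGraph
open Vale.Agent.Results.P186.ThinBelowOne

/-- two different vertices are adjacent iff their distance in `Γ` is at most `R` -/
def pw {V : Type*} (Γ : SimpleGraph V) (R : ℕ) : SimpleGraph V where
  Adj x y := x ≠ y ∧ Γ.dist x y ≤ R
  symm := ⟨fun x y h => ⟨h.1.symm, by rw [dist_comm]; exact h.2⟩⟩
  loopless := ⟨fun _ h => h.1 rfl⟩

theorem pw_adj {V : Type*} (Γ : SimpleGraph V) (R : ℕ) (x y : V) :
    (pw Γ R).Adj x y ↔ x ≠ y ∧ Γ.dist x y ≤ R := Iff.rfl

/-- thin triangles with a natural constant -/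
def NThin {V : Type*} (Γ : SimpleGraph V) (D : ℕ) : Prop :=
  ∀ (x y z : V) (a : Γ.Walk x y) (b : Γ.Walk y z) (c : Γ.Walk x z),
    IsGeodesic Γ a → IsGeodesic Γ b → IsGeodesic Γ c →
      ∀ p ∈ a.support, ∃ q, (q ∈ b.support ∨ q ∈ c.support) ∧ Γ.dist p q ≤ D

theorem nthin_of_thin {V : Type*} {Γ : SimpleGraph V} {δ : ℝ} (h : ThinTriangles Γ δ) :
    NThin Γ ⌊δ⌋₊ := by
  intro x y z a b c ha hb hc p hp
  obtain ⟨q, hq, hd⟩ := h x y z a b c ha hb hc p hp
  exact ⟨q, hq, Nat.le_floor hd⟩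

theorem thin_of_nthin {V : Type*} {Γ : SimpleGraph V} {D : ℕ} (h : NThin Γ D) :
    ThinTriangles Γ D := by
  intro x y z a b c ha hb hc p hp
  obtain ⟨q, hq, hd⟩ := h x y z a b c ha hb hc p hp
  exact ⟨q, hq, by exact_mod_cast hd⟩

end Vale.Agent.Lib.P186.Rescale
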