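import Vale.Agent.Lib.P186.Rescale.Defs

namespace Vale.Agent.Lib.P186.Rescale

open SimpleGraph
open Vale.Agent.Results.P186.ThinBelowOne

/-- L3: two vertices of a walk. Proof: induction on `j` from `i` (`Nat.le_induction`): either `j < a.length`, then
`a.adj_getVert_succ` gives an edge, so `dist ≤ 1` (`dist_eq_one_iff_adj`), or `a.length ≤ j`, then both `getVert j` and
`getVert (j+1)` are the endpoint (`Walk.getVert_of_length_le`); triangle inequality (`Connected.dist_triangle`). -/
theorem dist_getVert_le {V : Type*} {Γ : SimpleGraph V} (hconn : ∀ x y, Γ.Reachable x y) {x y : V}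
    (a : Γ.Walk x y) (i j : ℕ) (hij : i ≤ j) :
    Γ.dist (a.getVert i) (a.getVert j) ≤ j - i := by
  have hne : Nonempty V := ⟨x⟩
  have hc : Γ.Connected := ⟨hconn⟩
  induction j, hij using Nat.le_induction with
  | base => simp
  | succ j hj ih =>
    have h1 : Γ.dist (a.getVert j) (a.getVert (j + 1)) ≤ 1 := by
      rcases Nat.lt_or_ge j a.length with h | h
      · exact (dist_eq_one_iff_adj.2 (a.adj_getVert_succ h)).le
      · rw [a.getVert_of_length_le h, a.getVert_of_length_le (Nat.le_succ_of_le h)]
        simp
    have h2 := hc.dist_triangle (u := a.getVert i) (v := a.getVert j) (w := a.getVert (j + 1))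
    omega

end Vale.Agent.Lib.P186.Rescale
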