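import Vale.Agent.Lib.P186.Rescale.Defs

namespace Vale.Agent.Lib.P186.Rescale

open SimpleGraph
open Vale.Agent.Results.P186.ThinBelowOne

/-- L1: a vertex of a geodesic walk is metrically between the endpoints.
Proof: `a.take_spec hp : (a.takeUntil p hp).append (a.dropUntil p hp) = a`, so the two lengths add up to `a.length = dist x y`;
`dist_le` for both parts gives `≤`; the triangle inequality (`Connected.dist_triangle`, or `Reachable`-version) gives `≥`.
Compare the end of the proof of `step` in `Results/P186/ThinBelowOne.lean`. -/
theorem geodesic_split {V : Type*} {Γ : SimpleGraph V} (hconn : ∀ x y, Γ.Reachable x y) {x y : V}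
    (a : Γ.Walk x y) (ha : IsGeodesic Γ a) (p : V) (hp : p ∈ a.support) :
    Γ.dist x p + Γ.dist p y = Γ.dist x y := by
  classical
  have hlen : (a.takeUntil p hp).length + (a.dropUntil p hp).length = a.length := by
    rw [← Walk.length_append, a.take_spec hp]
  have h1 : Γ.dist x p ≤ (a.takeUntil p hp).length := dist_le _
  have h2 : Γ.dist p y ≤ (a.dropUntil p hp).length := dist_le _
  have h3 : a.length = Γ.dist x y := ha
  have hc : Γ.Connected := { preconnected := hconn, nonempty := ⟨x⟩ }
  have h4 : Γ.dist x y ≤ Γ.dist x p + Γ.dist p y := hc.dist_triangle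
  omega

end Vale.Agent.Lib.P186.Rescale
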