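import Vale.Agent.Lib.P186.Rescale.GeoVert
import Vale.Agent.Lib.P186.Rescale.GeoSplit

namespace Vale.Agent.Lib.P186.Rescale

open SimpleGraph
open Vale.Agent.Results.P186.ThinBelowOne

/-- F3 with the explicit position `t` (the Gromov product): a point with small excess is close to every geodesic.
Proof: `t := (dist x p + dist x y - dist p y) / 2`; `t ≤ dist x y` by the triangle inequality `dist x p ≤ dist x y + dist y p`. `q := g.getVert t`,
`dist x q = t` (`geodesic_getVert`), `dist q y = dist x y - t` (`geodesic_split`, `Walk.getVert_mem_support`). Take geodesics `b : y → p`, `c : x → p`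
(`(hconn _ _).exists_walk_length_eq_dist`) and apply `hthin x y p g b c` to `q`: there is `q'` on `b` or on `c` with `dist q q' ≤ D`.
If `q'` is on `c`: `dist x q' + dist q' p = dist x p` (`geodesic_split`), `t = dist x q ≤ dist x q' + D`, so `dist q' p ≤ dist x p - t + D` and
`dist p q ≤ dist q' p + D`. If `q'` is on `b`: `dist y q' + dist q' p = dist y p`, `dist x y - t = dist y q ≤ dist y q' + D`. In both cases `omega` after collecting
the triangle inequalities and `dist_comm`. -/
theorem near_geodesic2 {V : Type*} {Γ : SimpleGraph V} (hconn : ∀ x y, Γ.Reachable x y) {D : ℕ}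
    (hthin : NThin Γ D) {x y : V} (g : Γ.Walk x y) (hg : IsGeodesic Γ g) (p : V) :
    ∃ t, t = (Γ.dist x p + Γ.dist x y - Γ.dist p y) / 2 ∧ t ≤ Γ.dist x y ∧
      2 * Γ.dist p (g.getVert t) + Γ.dist x y ≤ Γ.dist x p + Γ.dist p y + 4 * D + 1 := by
  have hC : Γ.Connected := { preconnected := hconn, nonempty := ⟨x⟩ }
  have tri : ∀ u v w, Γ.dist u w ≤ Γ.dist u v + Γ.dist v w := fun u v w => hC.dist_triangle
  have comm : ∀ u v, Γ.dist u v = Γ.dist v u := fun u v => dist_comm
  obtain ⟨t, ht⟩ : ∃ t, t = (Γ.dist x p + Γ.dist x y - Γ.dist p y) / 2 := ⟨_, rfl⟩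
  have h1 := tri x y p
  have h2 := tri p x y
  have h3 := comm y p
  have h4 := comm p x
  have htle : t ≤ Γ.dist x y := by omega
  refine ⟨t, ht, htle, ?_⟩
  have hq1 := geodesic_getVert hconn g hg t htle
  have hqm : g.getVert t ∈ g.support := Walk.getVert_mem_support _ _
  have hq2 := geodesic_split hconn g hg _ hqm
  obtain ⟨b, hb⟩ := (hconn y p).exists_walk_length_eq_dist
  obtain ⟨c, hc⟩ := (hconn x p).exists_walk_length_eq_dist
  obtain ⟨q', hq', hd⟩ := hthin x y p g b c hg hb hc _ hqm
  generalize g.getVert t = q at hq1 hq2 hd ⊢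
  rcases hq' with hqb | hqc
  · have h5 := geodesic_split hconn b hb q' hqb
    have h6 := tri y q' q
    have h7 := tri p q' q
    have h8 := comm q' q
    have h9 := comm p q'
    have h10 := comm y q
    omega
  · have h5 := geodesic_split hconn c hc q' hqc
    have h6 := tri x q' q
    have h7 := tri p q' q
    have h8 := comm q' q
    have h9 := comm p q'
    omega

end Vale.Agent.Lib.P186.Rescale
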