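import Vale.Agent.Lib.P186.Rescale.Excess
import Vale.Agent.Lib.P186.Rescale.Near2
import Vale.Agent.Lib.P186.Rescale.GetVertDist

namespace Vale.Agent.Lib.P186.Rescale

open SimpleGraph
open Vale.Agent.Results.P186.ThinBelowOne

/-- F4, sharper form (uses the explicit position of the near point): every vertex of a geodesic of `Γ` is close to a vertex of any geodesic of `pw Γ R` with the same endpoints.
Proof: `w = g.getVert s` with `s ≤ g.length = dist y z` (`Walk.mem_support_iff_exists_getVert`). Let `f i := dist y (b.getVert i)`; `f b.length = dist y z ≥ s`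
(`Walk.getVert_length`), so `i := Nat.find` of `s ≤ f i` exists. If `i = 0` then `f 0 = 0`, `s = 0`. If `i = i' + 1` then `f i' < s`, `i' < b.length`, and
`(b.adj_getVert_succ _).2 : dist (b.getVert i') (b.getVert (i'+1)) ≤ R`, so `f i ≤ f i' + R ≤ s + R - 1`. So `s ≤ f i ≤ s + R - 1` (uses `1 ≤ R`).
`v := b.getVert i` is in `b.support` (`Walk.getVert_mem_support`). `excess_lt`: `dist y v + dist v z < dist y z + R`. `near_geodesic` for `g` and `v`: `t ≤ dist y z`,
`q := g.getVert t`, `2 dist v q ≤ R + 4 D`. `dist y q = t` (`geodesic_getVert`), so `|t - f i| ≤ dist v q` (triangle inequalities).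
`dist w q ≤ |s - t|` (`dist_getVert_le`, both orders, `dist_comm`). Hence `dist w v ≤ dist w q + dist q v ≤ (R - 1) + 2 dist v q ≤ 2 R + 4 D`. -/
theorem dense2 {V : Type*} {Γ : SimpleGraph V} (hconn : ∀ x y, Γ.Reachable x y) {R D : ℕ}
    (hR : 1 ≤ R) (hthin : NThin Γ D) {y z : V} (g : Γ.Walk y z) (hg : IsGeodesic Γ g)
    (b : (pw Γ R).Walk y z) (hb : IsGeodesic (pw Γ R) b) (w : V) (hw : w ∈ g.support) :
    ∃ v ∈ b.support, Γ.dist w v ≤ R + 2 * D := by
  have hc : Γ.Connected := { preconnected := hconn, nonempty := ⟨y⟩ }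
  have hglen : g.length = Γ.dist y z := hg
  obtain ⟨s, hs_eq, hs_le⟩ := (Walk.mem_support_iff_exists_getVert).1 hw
  have hs_le' : s ≤ Γ.dist y z := hglen ▸ hs_le
  have hex : ∃ i, s ≤ Γ.dist y (b.getVert i) :=
    ⟨b.length, by rw [Walk.getVert_length]; exact hs_le'⟩
  classical
  have hi : s ≤ Γ.dist y (b.getVert (Nat.find hex)) := Nat.find_spec hex
  have hmin : ∀ j, j < Nat.find hex → ¬ s ≤ Γ.dist y (b.getVert j) :=
    fun j hj => Nat.find_min hex hj
  have hile : Nat.find hex ≤ b.length :=
    Nat.find_min' hex (by rw [Walk.getVert_length]; exact hs_le')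
  generalize Nat.find hex = i at hi hmin hile
  have hup : Γ.dist y (b.getVert i) + 1 ≤ s + R := by
    cases i with
    | zero =>
      rw [Walk.getVert_zero, SimpleGraph.dist_self]
      omega
    | succ i' =>
      have h1 : ¬ s ≤ Γ.dist y (b.getVert i') := hmin i' (Nat.lt_succ_self _)
      have hlt : i' < b.length := by omega
      have hadj := (b.adj_getVert_succ hlt).2
      have htri := hc.dist_triangle (u := y) (v := b.getVert i') (w := b.getVert (i' + 1))
      omega
  refine ⟨b.getVert i, Walk.getVert_mem_support b i, ?_⟩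
  have hexc := excess_lt hconn hR b hb (b.getVert i) (Walk.getVert_mem_support b i)
  obtain ⟨t, hteq, ht, hnear⟩ := near_geodesic2 hconn hthin g hg (b.getVert i)
  have h0 := hc.dist_triangle (u := y) (v := b.getVert i) (w := z)
  have hq : Γ.dist y (g.getVert t) = t := geodesic_getVert hconn g hg t ht
  have h1 := hc.dist_triangle (u := y) (v := b.getVert i) (w := g.getVert t)
  have h2 := hc.dist_triangle (u := y) (v := g.getVert t) (w := b.getVert i)
  have hcomm : Γ.dist (g.getVert t) (b.getVert i) = Γ.dist (b.getVert i) (g.getVert t) :=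
    SimpleGraph.dist_comm
  have h3 := hc.dist_triangle (u := w) (v := g.getVert t) (w := b.getVert i)
  have h4 : Γ.dist w (g.getVert t) ≤ (t - s) + (s - t) := by
    rw [← hs_eq]
    rcases le_total s t with hst | hst
    · have := dist_getVert_le hconn g s t hst
      omega
    · have := dist_getVert_le hconn g t s hst
      rw [SimpleGraph.dist_comm] at this
      omega
  omega

end Vale.Agent.Lib.P186.Rescale
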