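import Vale.Agent.Lib.P186.Rescale.GeoVert
import Vale.Agent.Lib.P186.Rescale.GeoSplit

namespace Vale.Agent.Lib.P186.Rescale

open SimpleGraph
open Vale.Agent.Results.P186.ThinBelowOne

/-- F1b: if `dist x y ≤ R k` then there is a walk of length at most `k` in `pw Γ R`.
Proof: induction on `k` generalizing `x`. `k = 0`: `dist x y = 0`, so `x = y` (`Reachable.dist_eq_zero_iff`), `Walk.nil`.
Step: if `dist x y ≤ R` then `x = y` (nil) or the edge `⟨hne, h⟩` (`Walk.cons _ Walk.nil`). Otherwise take a geodesic `a` of `Γ` from `x` to `y`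
(`(hconn x y).exists_walk_length_eq_dist`), `u = a.getVert R`: `dist x u = R` (`geodesic_getVert`), `u ≠ x` as `R ≥ 1`,
`dist u y = dist x y - R ≤ R k` (`geodesic_split` with `Walk.getVert_mem_support`), induction hypothesis for `u`, then `Walk.cons`. -/
theorem exists_pw_walk {V : Type*} {Γ : SimpleGraph V} (hconn : ∀ x y, Γ.Reachable x y) {R : ℕ}
    (hR : 1 ≤ R) (k : ℕ) (x y : V) (h : Γ.dist x y ≤ R * k) :
    ∃ w : (pw Γ R).Walk x y, w.length ≤ k := by
  induction k generalizing x with
  | zero =>
    have h0 : Γ.dist x y = 0 := by simpa using h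
    have hxy : x = y := (hconn x y).dist_eq_zero_iff.1 h0
    subst hxy
    exact ⟨Walk.nil, le_rfl⟩
  | succ k ih =>
    by_cases hle : Γ.dist x y ≤ R
    · by_cases hxy : x = y
      · subst hxy
        exact ⟨Walk.nil, Nat.zero_le _⟩
      · have hadj : (pw Γ R).Adj x y := ⟨hxy, hle⟩
        refine ⟨Walk.cons hadj Walk.nil, ?_⟩
        simp
    · have hlt : R < Γ.dist x y := not_le.1 hle
      obtain ⟨a, ha⟩ := (hconn x y).exists_walk_length_eq_dist
      have hgeo : IsGeodesic Γ a := ha
      have h1 : Γ.dist x (a.getVert R) = R := geodesic_getVert hconn a hgeo R hlt.le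
      have h2 : Γ.dist x (a.getVert R) + Γ.dist (a.getVert R) y = Γ.dist x y :=
        geodesic_split hconn a hgeo _ (Walk.getVert_mem_support a R)
      have hne : x ≠ a.getVert R := by
        intro he
        rw [← he] at h1
        simp at h1
        omega
      have h3 : Γ.dist (a.getVert R) y ≤ R * k := by
        have : R * (k + 1) = R * k + R := by ring
        omega
      obtain ⟨w, hw⟩ := ih (a.getVert R) h3
      have hadj : (pw Γ R).Adj x (a.getVert R) := ⟨hne, h1.le⟩
      refine ⟨Walk.cons hadj w, ?_⟩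
      simp only [Walk.length_cons]
      omega

end Vale.Agent.Lib.P186.Rescale
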