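import Vale.Agent.Lib.P186.Rescale.PwA
import Vale.Agent.Lib.P186.Rescale.PwB

namespace Vale.Agent.Lib.P186.Rescale

open SimpleGraph
open Vale.Agent.Results.P186.ThinBelowOne

theorem pw_reachable {V : Type*} {Γ : SimpleGraph V} (hconn : ∀ x y, Γ.Reachable x y) {R : ℕ}
    (hR : 1 ≤ R) (x y : V) : (pw Γ R).Reachable x y := by
  obtain ⟨w, -⟩ := exists_pw_walk hconn hR (Γ.dist x y) x y (Nat.le_mul_of_pos_left _ hR)
  exact ⟨w⟩

/-- F2: a vertex `p` of a geodesic of `pw Γ R` from `x` to `y` has excess `< R` in `Γ`.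
Proof: let `d'` be the distance of `pw Γ R`. `geodesic_split (pw_reachable hconn hR) a ha p hp : d' x p + d' p y = d' x y`.
Geodesics of `pw Γ R` from `x` to `p` and from `p` to `y` with `dist_le_mul_length` give `dist x p ≤ R d' x p`, `dist p y ≤ R d' p y`.
Finally `R d' x y < dist x y + R`: if `d' x y = 0` clear; otherwise, if `dist x y ≤ R (d' x y - 1)` then `exists_pw_walk` gives a walk of length
`≤ d' x y - 1`, which contradicts `dist_le`. Finish with `nlinarith`/`Nat.mul_sub`, `omega`. -/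
theorem excess_lt {V : Type*} {Γ : SimpleGraph V} (hconn : ∀ x y, Γ.Reachable x y) {R : ℕ}
    (hR : 1 ≤ R) {x y : V} (a : (pw Γ R).Walk x y) (ha : IsGeodesic (pw Γ R) a) (p : V)
    (hp : p ∈ a.support) : Γ.dist x p + Γ.dist p y < Γ.dist x y + R := by
  have hsplit := geodesic_split (pw_reachable hconn hR) a ha p hp
  obtain ⟨w1, hw1⟩ := (pw_reachable hconn hR x p).exists_walk_length_eq_dist
  obtain ⟨w2, hw2⟩ := (pw_reachable hconn hR p y).exists_walk_length_eq_dist
  have h1 : Γ.dist x p ≤ R * (pw Γ R).dist x p := by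
    rw [← hw1]
    exact dist_le_mul_length hconn R w1
  have h2 : Γ.dist p y ≤ R * (pw Γ R).dist p y := by
    rw [← hw2]
    exact dist_le_mul_length hconn R w2
  have h3 : R * (pw Γ R).dist x y < Γ.dist x y + R := by
    rcases Nat.eq_zero_or_pos ((pw Γ R).dist x y) with h0 | hpos
    · rw [h0]
      omega
    · by_contra hcon
      have hle : Γ.dist x y + R ≤ R * (pw Γ R).dist x y := not_lt.mp hcon
      obtain ⟨k, hk⟩ : ∃ k, (pw Γ R).dist x y = k + 1 := ⟨(pw Γ R).dist x y - 1, by omega⟩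
      rw [hk, Nat.mul_succ] at hle
      obtain ⟨w, hw⟩ := exists_pw_walk hconn hR k x y (by omega)
      have := SimpleGraph.dist_le w
      omega
  have h4 : R * (pw Γ R).dist x p + R * (pw Γ R).dist p y = R * (pw Γ R).dist x y := by
    rw [← Nat.mul_add, hsplit]
  omega

end Vale.Agent.Lib.P186.Rescale
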