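import Vale.Agent.Lib.P186.Rescale.Defs

namespace Vale.Agent.Lib.P186.Rescale

open SimpleGraph
open Vale.Agent.Results.P186.ThinBelowOne

/-- L2: the `t`-th vertex of a geodesic walk is at distance `t` from the start.
Proof: `dist x (a.getVert t) ≤ t` by `dist_le (a.take t)` (`Walk.take_length`), `dist (a.getVert t) y ≤ a.length - t` by `dist_le (a.drop t)`
(`Walk.drop_length`), and the triangle inequality `dist x y ≤ dist x v + dist v y` with `a.length = dist x y`. -/
theorem geodesic_getVert {V : Type*} {Γ : SimpleGraph V} (hconn : ∀ x y, Γ.Reachable x y) {x y : V}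
    (a : Γ.Walk x y) (ha : IsGeodesic Γ a) (t : ℕ) (ht : t ≤ Γ.dist x y) :
    Γ.dist x (a.getVert t) = t := by
  have hne : Nonempty V := ⟨x⟩
  have hc : Γ.Connected := { preconnected := hconn, nonempty := hne }
  have h1 : Γ.dist x (a.getVert t) ≤ (a.take t).length := dist_le (a.take t)
  have h2 : Γ.dist (a.getVert t) y ≤ (a.drop t).length := dist_le (a.drop t)
  rw [Walk.take_length] at h1
  rw [Walk.drop_length] at h2
  have h3 : Γ.dist x y ≤ Γ.dist x (a.getVert t) + Γ.dist (a.getVert t) y := hc.dist_triangle
  unfold IsGeodesic at ha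
  omega

end Vale.Agent.Lib.P186.Rescale
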