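import Vale.Agent.Lib.P186.Rescale.ThinPw
import Vale.Agent.Lib.P186.Rescale.CayBall
import Vale.Agent.Lib.P186.Rescale.CayGen
import Vale.Agent.Lib.P186.Rescale.CayEq

namespace Vale.Agent.Lib.P186.Rescale

open SimpleGraph
open Vale.Agent.Results.P186.ThinBelowOne

theorem exists_rescale (G : Type*) [Group G] (S : Set G) (hfin : S.Finite)
    (hgen : Subgroup.closure S = ⊤) (δ : ℝ) (h : ThinTriangles (mulCayley S) δ) :
    ∃ S' : Set G, S'.Finite ∧ Subgroup.closure S' = ⊤ ∧ ThinTriangles (mulCayley S') 3 := by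
  refine ⟨{g : G | (mulCayley S).dist 1 g ≤ 14 * ⌊δ⌋₊ + 1}, ball_finite S hfin hgen _,
    closure_ball S hgen (by omega), ?_⟩
  rw [mulCayley_ball]
  have := thin_of_nthin (nthin_pw (reachable S hgen) (le_refl _) (nthin_of_thin h))
  exact_mod_cast this

end Vale.Agent.Lib.P186.Rescale
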