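import Vale.Agent.Lib.P186.Rescale.Defs

namespace Vale.Agent.Lib.P186.Rescale

open SimpleGraph
open Vale.Agent.Results.P186.ThinBelowOne

/-- F1a: a walk of length `k` in `pw Γ R` moves by at most `R k` in `Γ`.
Proof: induction on the walk; `cons h w`: `h.2 : Γ.dist x u ≤ R`, triangle inequality, `Walk.length_cons`, `Nat.mul_succ`. -/
theorem dist_le_mul_length {V : Type*} {Γ : SimpleGraph V} (hconn : ∀ x y, Γ.Reachable x y) (R : ℕ)
    {x y : V} (w : (pw Γ R).Walk x y) : Γ.dist x y ≤ R * w.length := by
  induction w with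
  | nil => simp
  | cons h w ih =>
    rename_i a b c
    have h1 : Γ.dist a b ≤ R := h.2
    have h2 : Γ.dist a c ≤ Γ.dist a b + Γ.dist b c := by
      obtain ⟨p, hp⟩ := (hconn a b).exists_walk_length_eq_dist
      obtain ⟨q, hq⟩ := (hconn b c).exists_walk_length_eq_dist
      have h3 := SimpleGraph.dist_le (p.append q)
      rw [Walk.length_append, hp, hq] at h3
      exact h3
    rw [Walk.length_cons, Nat.mul_succ]
    omega

end Vale.Agent.Lib.P186.Rescale
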