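import Vale.Agent.Lib.P186.Rescale.Dense

namespace Vale.Agent.Lib.P186.Rescale

open SimpleGraph
open Vale.Agent.Results.P186.ThinBelowOne

/-- F5: the rescaled graph has `3`-thin triangles.
Proof: let `a, b, c` be geodesics of `pw Γ R` (`x → y`, `y → z`, `x → z`), `p` on `a`. Take geodesics `g1 : x → y`, `g2 : y → z`, `g3 : x → z` of `Γ`.
`excess_lt` for `a, p` and `near_geodesic` for `g1, p`: `q := g1.getVert t` with `2 dist p q ≤ R + 4 D`. `hthin x y z g1 g2 g3` for `q` (`Walk.getVert_mem_support`):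
`q'` on `g2` or `g3` with `dist q q' ≤ D`. `dense` for `(g2, b)` resp. `(g3, c)`: `v` on `b` resp. `c` with `dist q' v ≤ 2 R + 4 D`.
So `2 dist p v ≤ 5 R + 14 D ≤ 6 R`, `dist p v ≤ R * 3`, and `exists_pw_walk` with `dist_le` gives `(pw Γ R).dist p v ≤ 3`. -/
theorem nthin_pw {V : Type*} {Γ : SimpleGraph V} (hconn : ∀ x y, Γ.Reachable x y) {R D : ℕ}
    (hR : 14 * D + 1 ≤ R) (hthin : NThin Γ D) : NThin (pw Γ R) 3 := by
  have hR1 : 1 ≤ R := by omega
  intro x y z a b c ha hb hc p hp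
  have hcon : Γ.Connected := { preconnected := hconn, nonempty := ⟨x⟩ }
  have tri : ∀ u v w, Γ.dist u w ≤ Γ.dist u v + Γ.dist v w := fun u v w => hcon.dist_triangle
  obtain ⟨g1, hg1⟩ := (hconn x y).exists_walk_length_eq_dist
  obtain ⟨g2, hg2⟩ := (hconn y z).exists_walk_length_eq_dist
  obtain ⟨g3, hg3⟩ := (hconn x z).exists_walk_length_eq_dist
  have hex := excess_lt hconn hR1 a ha p hp
  obtain ⟨t, ht, hnear⟩ := near_geodesic hconn hthin g1 hg1 p
  obtain ⟨q', hq', hqq'⟩ := hthin x y z g1 g2 g3 hg1 hg2 hg3 (g1.getVert t)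
    (Walk.getVert_mem_support _ _)
  have fin : ∀ v, Γ.dist q' v ≤ 2 * R + 4 * D → (pw Γ R).dist p v ≤ 3 := by
    intro v hdv
    have h1 := tri p (g1.getVert t) v
    have h2 := tri (g1.getVert t) q' v
    have h3 : Γ.dist p v ≤ R * 3 := by omega
    obtain ⟨w, hw⟩ := exists_pw_walk hconn hR1 3 p v h3
    exact le_trans (SimpleGraph.dist_le w) hw
  rcases hq' with h2 | h3
  · obtain ⟨v, hv, hdv⟩ := dense hconn hR1 hthin g2 hg2 b hb q' h2
    exact ⟨v, Or.inl hv, fin v hdv⟩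
  · obtain ⟨v, hv, hdv⟩ := dense hconn hR1 hthin g3 hg3 c hc q' h3
    exact ⟨v, Or.inr hv, fin v hdv⟩

end Vale.Agent.Lib.P186.Rescale
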